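import Mathlib

/-!
# Row 211 (S0324–S0329): shared definitions of the team project (owner: helper4)

Cylinder covers of the regular tetrahedron.  All team files for row 211 import this file and use
these definitions verbatim.  Nothing here is proved; see `Crest/Agent/Row211/PLAN.md`.
-/

set_option autoImplicit false

open MeasureTheory
open scoped ENNReal

namespace Crest.Agent.Row211

/-- the Euclidean plane -/
abbrev E2 : Type := EuclideanSpace ℝ (Fin 2)

/-- Euclidean 3-space -/
abbrev E3 : Type := EuclideanSpace ℝ (Fin 3)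

/-- Gram determinant of two vectors: `‖a‖² ‖b‖² − ⟪a, b⟫²` (the squared area of the parallelogram
they span). -/
noncomputable def gram2 {V : Type*} [NormedAddCommGroup V] [InnerProductSpace ℝ V] (a b : V) : ℝ :=
  ‖a‖ ^ 2 * ‖b‖ ^ 2 - inner ℝ a b ^ 2

/-- the determinant of three vectors of `E3` -/
def det3 (a b d : E3) : ℝ :=
  a 0 * (b 1 * d 2 - b 2 * d 1) - a 1 * (b 0 * d 2 - b 2 * d 0) + a 2 * (b 0 * d 1 - b 1 * d 0)

/-- the map `y ↦ y − ⟪y, v⟫ v` of the statements (the orthogonal projection onto `v^⊥` when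
`‖v‖ = 1`) -/
noncomputable def projU (v : E3) (y : E3) : E3 := y - inner ℝ y v • v

/-- the orthogonal projection onto `d^⊥` for an arbitrary vector `d` (form used in S0328) -/
noncomputable def projD (d : E3) (y : E3) : E3 := y - (inner ℝ y d / ‖d‖ ^ 2) • d

/-- the standard regular tetrahedron with vertices `(±1, 0, 0)`, `(0, ±1, √2)` -/
noncomputable def tetra : Set E3 :=
  convexHull ℝ {!₂[1, 0, 0], !₂[-1, 0, 0], !₂[0, 1, Real.sqrt 2], !₂[0, -1, Real.sqrt 2]}

/-- the cylinder with triangular base `conv {p, q, r}` and direction `u` (S0324/S0325 form) -/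
def triCyl (u p q r : E3) : Set E3 :=
  {x : E3 | ∃ b ∈ convexHull ℝ {p, q, r}, ∃ t : ℝ, x = b + t • u}

/-- the parallelogram `c + [0,1] a + [0,1] b` (S0327 form) -/
def pgram (c a b : E3) : Set E3 :=
  {x : E3 | ∃ s ∈ Set.Icc (0 : ℝ) 1, ∃ t ∈ Set.Icc (0 : ℝ) 1, x = c + s • a + t • b}

/-- A finite cover of the standard tetrahedron by cylinders with triangular bases orthogonal to
their unit directions. -/
structure TriCover (m : ℕ) (u p q r : Fin m → E3) : Prop where
  unit : ∀ i, ‖u i‖ = 1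
  perp : ∀ i, inner ℝ (p i) (u i) = 0 ∧ inner ℝ (q i) (u i) = 0 ∧ inner ℝ (r i) (u i) = 0
  cover : tetra ⊆ ⋃ i, triCyl (u i) (p i) (q i) (r i)

/-- total base area of a family of triangles -/
noncomputable def totalArea {m : ℕ} (p q r : Fin m → E3) : ℝ :=
  ∑ i, (μHE[2] (convexHull ℝ ({p i, q i, r i} : Set E3))).toReal

/-! ### the explicit cover: parameters and the scaled model

Scaled coordinates `(x, y, ζ)` with `ζ = z / √2`: the tetrahedron is
`{|x| ≤ 1 − ζ, |y| ≤ ζ, 0 ≤ ζ ≤ 1}`. -/

/-- tilt parameter -/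
noncomputable def kap : ℝ := 1 / 2000

/-- slack parameter -/
noncomputable def slack : ℝ := 1 / 60

/-- radial extent of the lower family -/
noncomputable def Rfun (t : ℝ) : ℝ := 1 / 2 + kap ^ 2 * (t ^ 2 + t ^ 4 + slack)

/-- the interface between the lower and the upper family (antisymmetric under `(x, y) ↦ (y, −x)`
about `1/2`) -/
noncomputable def Sig (x y : ℝ) : ℝ :=
  1 / 2 + 4 * kap * x * y + kap ^ 2 * (4 * (y ^ 2 - x ^ 2) + 8 * (y ^ 4 - x ^ 4))

/-- `(x, y, ζ)` lies in the lower family -/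
def InLower (x y ζ : ℝ) : Prop :=
  ∃ t ∈ Set.Icc (-1 : ℝ) 1, y = t * ζ + kap * x * (1 - t ^ 2) ∧
    0 ≤ ζ - 2 * kap * x * t ∧ ζ - 2 * kap * x * t ≤ Rfun t

/-- the point of `E3` with scaled coordinates `(x, y, ζ)` -/
noncomputable def ofScaled (x y ζ : ℝ) : E3 := !₂[x, y, Real.sqrt 2 * ζ]

end Crest.Agent.Row211
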